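import Crest.Agent.R175.Dir.Main

/-!
# R175/Morse/Link: links of vertices, `Conn` calculus, abstract Morse lemma (helper63)
-/

set_option autoImplicit false
set_option linter.unusedSectionVars false

open Finset Crest.GroupTheory

noncomputable section

namespace Crest.Agent.R175.P

variable {S : Type} [Fintype S] [DecidableEq S] {M : CoxeterMatrix S}

theorem AP_induction {T : Finset S} {p : ArtinGroup M → Prop} {g : ArtinGroup M} (hg : g ∈ AP M T)
    (one : p 1) (mul : ∀ u ∈ T, ∀ a ∈ AP M T, p a → p (σ M u * a))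
    (inv : ∀ u ∈ T, ∀ a ∈ AP M T, p a → p ((σ M u)⁻¹ * a)) : p g := by
  induction hg using Subgroup.closure_induction_left with
  | one => exact one
  | mul_left x hx y hy ih =>
    obtain ⟨u, hu, rfl⟩ := hx
    exact mul u (by exact_mod_cast hu) y hy ih
  | inv_mul_cancel x hx y hy ih =>
    obtain ⟨u, hu, rfl⟩ := hx
    exact inv u (by exact_mod_cast hu) y hy ih

theorem Car_erase {T : Finset S} {t : S} (ht : t ∈ T) (c : S → ℝ) (u : S) :
    Car M (T.erase t) c u = Car M T c u + adj M u t * c t := by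
  unfold Car
  rw [← Finset.add_sum_erase T (fun w => adj M u w * c w) ht]
  ring

theorem Car_add_smul (T : Finset S) (c y : S → ℝ) (H : ℝ) (u : S) :
    Car M T (fun s => c s + H * y s) u = Car M T c u + H * Car M T y u := by
  unfold Car
  simp only [mul_add, Finset.sum_add_distrib, mul_sub, Finset.mul_sum]
  have : ∀ w ∈ T, adj M u w * (H * y w) = H * (adj M u w * y w) := fun w _ => by ring
  rw [Finset.sum_congr rfl this]
  ring

/-! ### steps and connectivity -/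

theorem Step.symm {T : Finset S} {p q : S × ArtinGroup M} (h : Step M T p q) : Step M T q p := by
  rcases h with h | ⟨h1, h2⟩
  · exact Or.inl h.symm
  · refine Or.inr ⟨h1.symm, ?_⟩
    have := (AP M (T.erase p.1)).inv_mem h2
    rw [← h1]
    simpa using this

theorem Step.link {U T : Finset S} (hU : U ⊆ T) (a : ArtinGroup M) {p q : S × ArtinGroup M}
    (h : Step M U p q) : Step M T (p.1, p.2 * a) (q.1, q.2 * a) := by
  rcases h with h | ⟨h1, h2⟩
  · exact Or.inl (by simp [h])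
  · refine Or.inr ⟨h1, ?_⟩
    have := AP_mono (M := M) (Finset.erase_subset_erase p.1 hU) h2
    simpa [mul_assoc] using this

theorem Conn.refl {T : Finset S} {D : S × ArtinGroup M → Prop} (p : S × ArtinGroup M) :
    Conn M T D p p := Relation.ReflTransGen.refl

theorem Conn.single {T : Finset S} {D : S × ArtinGroup M → Prop} {p q : S × ArtinGroup M}
    (hp : D p) (hq : D q) (h : Step M T p q) : Conn M T D p q :=
  Relation.ReflTransGen.single ⟨hp, hq, h⟩

theorem Conn.trans {T : Finset S} {D : S × ArtinGroup M → Prop} {p q r : S × ArtinGroup M}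
    (h : Conn M T D p q) (h' : Conn M T D q r) : Conn M T D p r :=
  Relation.ReflTransGen.trans h h'

theorem Conn.tail {T : Finset S} {D : S × ArtinGroup M → Prop} {p q r : S × ArtinGroup M}
    (h : Conn M T D p q) (hq : D q) (hr : D r) (h' : Step M T q r) : Conn M T D p r :=
  Relation.ReflTransGen.tail h ⟨hq, hr, h'⟩

theorem Conn.symm {T : Finset S} {D : S × ArtinGroup M → Prop} {p q : S × ArtinGroup M}
    (h : Conn M T D p q) : Conn M T D q p := by
  induction h with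
  | refl => exact Conn.refl _
  | tail _ hbc ih => exact (Conn.single hbc.2.1 hbc.1 hbc.2.2.symm).trans ih

theorem Conn.mem {T : Finset S} {D : S × ArtinGroup M → Prop} {p q : S × ArtinGroup M}
    (h : Conn M T D p q) (hp : D p) : D q := by
  induction h with
  | refl => exact hp
  | tail _ hbc _ => exact hbc.2.1

/-- `Conn` maps forward from a link (or from a smaller `T`, with `a = 1`). -/
theorem Conn.link {U T : Finset S} (hU : U ⊆ T) (a : ArtinGroup M)
    {D' D : S × ArtinGroup M → Prop} (hD : ∀ p, D' p → D (p.1, p.2 * a)) {p q : S × ArtinGroup M}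
    (h : Conn M U D' p q) : Conn M T D (p.1, p.2 * a) (q.1, q.2 * a) := by
  induction h with
  | refl => exact Conn.refl _
  | tail _ hbc ih => exact ih.tail (hD _ hbc.1) (hD _ hbc.2.1) (hbc.2.2.link hU a)

theorem Conn.mono' {U T : Finset S} (hU : U ⊆ T) {D' D : S × ArtinGroup M → Prop}
    (hD : ∀ p, D' p → D p) {p q : S × ArtinGroup M} (h : Conn M U D' p q) : Conn M T D p q := by
  have := h.link hU 1 (D := D) (fun p hp => by simpa using hD p hp)
  simpa using this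

theorem Conn.mono {T : Finset S} {D' D : S × ArtinGroup M → Prop}
    (hD : ∀ p, D' p → D p) {p q : S × ArtinGroup M} (h : Conn M T D' p q) : Conn M T D p q :=
  h.mono' subset_rfl hD

/-- a path inside a directed union lies in one member -/
theorem Conn.exists_mem {T : Finset S} {D : S × ArtinGroup M → Prop} {ι : Type*} [LinearOrder ι]
    (E : ι → S × ArtinGroup M → Prop) (hE : ∀ i j, i ≤ j → ∀ p, E i p → E j p)
    (hD : ∀ p, D p → ∃ i, E i p) (i₀ : ι) {p q : S × ArtinGroup M} (h : Conn M T D p q) :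
    ∃ i, i₀ ≤ i ∧ Conn M T (E i) p q := by
  induction h with
  | refl => exact ⟨i₀, le_rfl, Conn.refl _⟩
  | tail _ hbc ih =>
    obtain ⟨i, hi, ih⟩ := ih
    obtain ⟨j, hj⟩ := hD _ hbc.1
    obtain ⟨k, hk⟩ := hD _ hbc.2.1
    refine ⟨max i (max j k), hi.trans (le_max_left _ _), ?_⟩
    exact (ih.mono (hE _ _ (le_max_left _ _))).tail
      (hE _ _ ((le_max_left _ _).trans (le_max_right _ _)) _ hj)
      (hE _ _ ((le_max_right _ _).trans (le_max_right _ _)) _ hk) hbc.2.2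

/-- the whole complex of `T` is connected for `|T| ≥ 2` -/
theorem conn_all {T : Finset S} (hT : 2 ≤ T.card) {p q : S × ArtinGroup M} (hp : p.1 ∈ T ∧ p.2 ∈ AP M T)
    (hq : q.1 ∈ T ∧ q.2 ∈ AP M T) : Conn M T (fun p => p.1 ∈ T ∧ p.2 ∈ AP M T) p q := by
  have hne : ∀ u : S, ∃ t ∈ T, t ≠ u := fun u => Finset.exists_mem_ne (by omega) u
  have step : ∀ u ∈ T, ∀ a ∈ AP M T, ∀ g ∈ AP M T, (∀ t ∈ T, t ≠ u → g * a⁻¹ ∈ AP M (T.erase t)) →
      (∀ t ∈ T, ∀ t' ∈ T, Conn M T (fun p => p.1 ∈ T ∧ p.2 ∈ AP M T) (t, 1) (t', a)) →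
      ∀ t ∈ T, ∀ t' ∈ T, Conn M T (fun p => p.1 ∈ T ∧ p.2 ∈ AP M T) (t, 1) (t', g) := by
    intro u _ a ha g hg hga ih t ht t' ht'
    obtain ⟨w, hw, hwu⟩ := hne u
    exact ((ih t ht w hw).tail ⟨hw, ha⟩ (show (w, g).1 ∈ T ∧ (w, g).2 ∈ AP M T from ⟨hw, hg⟩)
      (Or.inr ⟨rfl, hga w hw hwu⟩)).tail ⟨hw, hg⟩ ⟨ht', hg⟩ (Or.inl rfl)
  have key : ∀ g ∈ AP M T, ∀ t ∈ T, ∀ t' ∈ T,
      Conn M T (fun p => p.1 ∈ T ∧ p.2 ∈ AP M T) (t, 1) (t', g) := by
    intro g hg
    refine AP_induction (p := fun g => ∀ t ∈ T, ∀ t' ∈ T,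
      Conn M T (fun p => p.1 ∈ T ∧ p.2 ∈ AP M T) (t, 1) (t', g)) hg ?_ ?_ ?_
    · intro t ht t' ht'
      exact Conn.single ⟨ht, one_mem _⟩ ⟨ht', one_mem _⟩ (Or.inl rfl)
    · intro u hu a ha ih
      refine step u hu a ha _ (mul_mem (σ_mem_AP hu) ha) (fun t _ htu => ?_) ih
      simpa using σ_mem_AP (M := M) (Finset.mem_erase.2 ⟨htu.symm, hu⟩)
    · intro u hu a ha ih
      refine step u hu a ha _ (mul_mem (inv_mem (σ_mem_AP hu)) ha) (fun t _ htu => ?_) ih
      simpa using σ_mem_AP (M := M) (Finset.mem_erase.2 ⟨htu.symm, hu⟩)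
  exact (key p.2 hp.2 p.1 hp.1 p.1 hp.1).symm.trans (key q.2 hq.2 p.1 hp.1 q.1 hq.1)

/-- abstract Morse lemma: descend through the finitely many positive values of `f`. -/
theorem Conn.descend {T : Finset S} {P : S × ArtinGroup M → Prop} (f : S × ArtinGroup M → ℝ)
    (hfin : ∀ H : ℝ, {r | ∃ p, P p ∧ f p = r ∧ 0 < r ∧ r ≤ H}.Finite) {p q : S × ArtinGroup M}
    (hstep : ∀ H : ℝ, 0 < H → Conn M T (fun z => P z ∧ f z ≤ H) p q →
      Conn M T (fun z => P z ∧ f z < H) p q)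
    (h : Conn M T P p q) : Conn M T (fun z => P z ∧ f z ≤ 0) p q := by
  classical
  obtain ⟨H, -, hH⟩ := h.exists_mem (fun H z => P z ∧ f z ≤ H)
    (fun i j hij z hz => ⟨hz.1, hz.2.trans hij⟩) (fun z hz => ⟨f z, hz, le_rfl⟩) (0 : ℝ)
  have key : ∀ k : ℕ, ∀ H : ℝ, (hfin H).toFinset.card = k → Conn M T (fun z => P z ∧ f z ≤ H) p q →
      Conn M T (fun z => P z ∧ f z ≤ 0) p q := by
    intro k
    induction k using Nat.strong_induction_on with
    | _ k ih =>
      intro H hk hc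
      rcases (hfin H).toFinset.eq_empty_or_nonempty with he | hne
      · refine hc.mono fun z hz => ⟨hz.1, ?_⟩
        by_contra hlt
        have : f z ∈ (hfin H).toFinset := by
          rw [Set.Finite.mem_toFinset]
          exact ⟨z, hz.1, rfl, lt_of_not_ge hlt, hz.2⟩
        rw [he] at this
        simp at this
      · set H₁ := (hfin H).toFinset.max' hne with hH₁
        have hmem : H₁ ∈ (hfin H).toFinset := Finset.max'_mem _ _
        rw [Set.Finite.mem_toFinset] at hmem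
        obtain ⟨z₁, hz₁, hf₁, hpos, hle⟩ := hmem
        have c1 : Conn M T (fun z => P z ∧ f z ≤ H₁) p q := by
          refine hc.mono fun z hz => ⟨hz.1, ?_⟩
          by_cases h0 : f z ≤ 0
          · linarith
          · refine Finset.le_max' _ _ ?_
            rw [Set.Finite.mem_toFinset]
            exact ⟨z, hz.1, rfl, lt_of_not_ge h0, hz.2⟩
        have c2 := hstep H₁ hpos c1
        obtain ⟨H₂, -, c3⟩ := c2.exists_mem (ι := {r : ℝ // r < H₁})
          (fun r z => P z ∧ f z ≤ r.1) (fun i j hij z hz => ⟨hz.1, hz.2.trans hij⟩)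
          (fun z hz => ⟨⟨f z, hz.2⟩, hz.1, le_rfl⟩) ⟨0, hpos⟩
        refine ih _ ?_ H₂.1 rfl c3
        rw [← hk]
        apply Finset.card_lt_card
        refine ⟨fun r hr => ?_, fun hsub => ?_⟩
        · rw [Set.Finite.mem_toFinset] at hr ⊢
          obtain ⟨z, hz, h1, h2, h3⟩ := hr
          exact ⟨z, hz, h1, h2, (h3.trans H₂.2.le).trans hle⟩
        · have : H₁ ∈ (hfin H₂.1).toFinset := hsub (Finset.max'_mem _ _)
          rw [Set.Finite.mem_toFinset] at this
          obtain ⟨z, -, -, -, h3⟩ := this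
          exact absurd H₂.2 (not_lt.2 h3)
  exact key _ H rfl hH

namespace Mdl

variable (Q : Mdl M)

/-- the value of a vertex does not depend on the chamber -/
theorem v_vertex {T : Finset S} {t : S} {a g : ArtinGroup M} (h : g * a⁻¹ ∈ AP M (T.erase t)) (x : Q.X)
    (n : ℤ) : Q.v (g • x) n t = Q.v (a • x) n t := by
  rw [← Q.v_smul h (Finset.notMem_erase t T) (a • x) n, ← mul_smul]
  simp

theorem b_nonneg (_hPF : S_PF M) (T : Finset S) (x : Q.X) (n : ℤ) (u : S) : 0 ≤ Q.b T x n u :=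
  add_nonneg (Q.fr_nonneg _ _ _)
    (Finset.sum_nonneg fun t _ => mul_nonneg (adj_nonneg M u t) (Q.v_nonneg _ _ _))

theorem b_erase {T : Finset S} {t : S} (ht : t ∈ T) (x : Q.X) (n : ℤ) (u : S) :
    Q.b (T.erase t) x n u = Q.b T x n u + adj M u t * Q.v x n t := by
  unfold b
  rw [Finset.compl_erase, Finset.sum_insert (by simpa using ht)]
  ring

/-- the outside contribution in the link of `(t, a)` -/
theorem b_link {T : Finset S} {t : S} (ht : t ∈ T) {a : ArtinGroup M} (ha : a ∈ AP M T) (x : Q.X) (n : ℤ)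
    (u : S) : Q.b (T.erase t) (a • x) n u = Q.b T x n u + adj M u t * Q.v (a • x) n t := by
  rw [Q.b_erase ht, Q.b_smul ha]

variable {Q}

theorem Out.link {T : Finset S} {m : ℤ} {x : Q.X} (h : Q.Out T m x) {p : S × ArtinGroup M}
    (hp : Q.Vx T x m p) : Q.Out (T.erase p.1) m (p.2 • x) := by
  intro n hn u hu
  have h' := h.smul hp.2.1 n hn u (Finset.mem_of_mem_erase hu)
  refine ⟨h'.1, fun t ht hadj => ?_⟩
  by_cases htp : t = p.1
  · rw [htp]
    exact hp.2.2 n hn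
  · exact h'.2 t (fun htT => ht (Finset.mem_erase.2 ⟨htp, htT⟩)) hadj

theorem Adm.link (_hPF : S_PF M) {T : Finset S} {m : ℤ} {x : Q.X} {c : S → ℝ} (h : Q.Adm T x m c)
    {t : S} (ht : t ∈ T) {a : ArtinGroup M} (ha : a ∈ AP M T) (hc : c t ≤ Q.v (a • x) m t) :
    Q.Adm (T.erase t) (a • x) m c := by
  intro u hu
  rw [Car_erase ht, Q.b_link ht ha]
  have := h u (Finset.mem_of_mem_erase hu)
  have := mul_le_mul_of_nonneg_left hc (adj_nonneg M u t)
  linarith

theorem Vx.mono {T : Finset S} {m n : ℤ} {x : Q.X} {p : S × ArtinGroup M} (h : Q.Vx T x m p) (hmn : m ≤ n) :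
    Q.Vx T x n p :=
  ⟨h.1, h.2.1, fun k hk => h.2.2 k (lt_of_le_of_lt hmn hk)⟩

/-- every vertex has a top degree -/
theorem exists_Vx {T : Finset S} (x : Q.X) {p : S × ArtinGroup M} (hp : p.1 ∈ T ∧ p.2 ∈ AP M T) :
    ∃ n, Q.Vx T x n p := by
  obtain ⟨n, hn⟩ := Q.bdd (p.2 • x)
  exact ⟨n, hp.1, hp.2, fun k hk => (hn k hk p.1).1⟩

theorem Vx.succ {T : Finset S} {m : ℤ} {x : Q.X} {p : S × ArtinGroup M} (h : Q.Vx T x (m + 1) p)
    (h0 : Q.v (p.2 • x) (m + 1) p.1 ≤ 0) : Q.Vx T x m p := by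
  refine ⟨h.1, h.2.1, fun k hk => ?_⟩
  rcases eq_or_lt_of_le (show m + 1 ≤ k from hk) with rfl | hlt
  · exact le_antisymm h0 (Q.v_nonneg _ _ _)
  · exact h.2.2 k hlt

theorem Vx.vertex {T : Finset S} {m : ℤ} {x : Q.X} {p : S × ArtinGroup M} (h : Q.Vx T x m p)
    {g : ArtinGroup M} (hg : g * p.2⁻¹ ∈ AP M (T.erase p.1)) : Q.Vx T x m (p.1, g) := by
  refine ⟨h.1, ?_, fun k hk => ?_⟩
  · have := mul_mem (AP_mono (Finset.erase_subset _ _) hg) h.2.1
    simpa using this
  · rw [← h.2.2 k hk]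
    exact Q.v_vertex hg x k

theorem D.vertex {T : Finset S} {m : ℤ} {x : Q.X} {c : S → ℝ} {p : S × ArtinGroup M} (h : Q.D T x m c p)
    {g : ArtinGroup M} (hg : g * p.2⁻¹ ∈ AP M (T.erase p.1)) : Q.D T x m c (p.1, g) :=
  ⟨h.1.vertex hg, by
    have := h.2
    rwa [← Q.v_vertex hg x m] at this⟩

/-- from the link (or a smaller `U`) to `T` -/
theorem Vx.of_link {U T : Finset S} (hU : U ⊆ T) {a : ArtinGroup M} (ha : a ∈ AP M T) {m : ℤ} {x : Q.X}
    {p : S × ArtinGroup M} (h : Q.Vx U (a • x) m p) : Q.Vx T x m (p.1, p.2 * a) :=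
  ⟨hU h.1, mul_mem (AP_mono hU h.2.1) ha, fun k hk => by simpa [mul_smul] using h.2.2 k hk⟩

theorem D.of_link {U T : Finset S} (hU : U ⊆ T) {a : ArtinGroup M} (ha : a ∈ AP M T) {m : ℤ} {x : Q.X}
    {c : S → ℝ} {p : S × ArtinGroup M} (h : Q.D U (a • x) m c p) : Q.D T x m c (p.1, p.2 * a) :=
  ⟨h.1.of_link hU ha, by simpa [mul_smul] using h.2⟩

/-- from `T` to the link -/
theorem Vx.to_link {U T : Finset S} {a : ArtinGroup M} {m : ℤ} {x : Q.X} {p : S × ArtinGroup M}
    (h : Q.Vx T x m p) (h1 : p.1 ∈ U) (h2 : p.2 * a⁻¹ ∈ AP M U) : Q.Vx U (a • x) m (p.1, p.2 * a⁻¹) :=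
  ⟨h1, h2, fun k hk => by simpa [← mul_smul] using h.2.2 k hk⟩

theorem D.to_link {U T : Finset S} {a : ArtinGroup M} {m : ℤ} {x : Q.X} {c : S → ℝ}
    {p : S × ArtinGroup M} (h : Q.D T x m c p) (h1 : p.1 ∈ U) (h2 : p.2 * a⁻¹ ∈ AP M U) :
    Q.D U (a • x) m c (p.1, p.2 * a⁻¹) :=
  ⟨h.1.to_link h1 h2, by simpa [← mul_smul] using h.2⟩

/-- the normalised heights take finitely many values below any bound -/
theorem finite_heights (T : Finset S) (x : Q.X) (n : ℤ) (c y : S → ℝ) (hy : ∀ s, 0 < y s) (H : ℝ) :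
    {r | ∃ p : S × ArtinGroup M, p.1 ∈ T ∧ (Q.v (p.2 • x) n p.1 - c p.1) / y p.1 = r ∧ r ≤ H}.Finite := by
  refine (Set.Finite.biUnion (T.finite_toSet) (fun t _ =>
    (Q.disc (c t + H * y t)).image fun l => (l - c t) / y t)).subset ?_
  rintro r ⟨p, hp, rfl, hr⟩
  refine Set.mem_biUnion (show p.1 ∈ (T : Set S) from hp) ⟨_, ⟨Q.v_mem _ _ _, ?_⟩, rfl⟩
  rw [div_le_iff₀ (hy _)] at hr
  rw [Set.mem_Iic]
  linarith

end Mdl

end Crest.Agent.R175.P
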