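import Crest.Agent.R175.Morse.Link

/-!
# R175/Morse/Main: `C(T)` and `C'(T)` for all `T` from the finite type case (helper63)
-/

set_option autoImplicit false
set_option linter.unusedSectionVars false

open Finset Crest.GroupTheory

noncomputable section

namespace Crest.Agent.R175.P

variable {S : Type} [Fintype S] [DecidableEq S] {M : CoxeterMatrix S}

namespace Mdl

/-- the vertices at or below the thresholds -/
def Dp (Q : Mdl M) (T : Finset S) (x : Q.X) (m : ℤ) (c : S → ℝ) (p : S × ArtinGroup M) : Prop :=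
  Q.Vx T x m p ∧ Q.v (p.2 • x) m p.1 ≤ c p.1

variable {Q : Mdl M}

/-- STEP: a point joined to a point of `D` inside `D ∪ ties` is in `D` and joined to it in `D`, or a tie
with such a neighbour. -/
theorem step (hPF : S_PF M) {T : Finset S} (hC : ∀ t ∈ T, S_C Q (T.erase t))
    (hC' : ∀ t ∈ T, S_C' Q (T.erase t)) {x : Q.X} {m : ℤ} {c : S → ℝ} (hO : Q.Out T m x)
    (hA : Q.Adm T x m c) {x₀ q : S × ArtinGroup M} (h₀ : Q.D T x m c x₀)
    (h : Conn M T (Q.Dp T x m c) x₀ q) :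
    ∃ w, Q.D T x m c w ∧ Conn M T (Q.D T x m c) x₀ w ∧
      (w = q ∨ (Q.v (q.2 • x) m q.1 = c q.1 ∧ w.2 * q.2⁻¹ ∈ AP M (T.erase q.1))) := by
  induction h with
  | refl => exact ⟨x₀, h₀, Conn.refl _, Or.inl rfl⟩
  | @tail p q _ hpq ih =>
    obtain ⟨hp, hq, hs⟩ := hpq
    obtain ⟨w, hw, hc, hwp⟩ := ih
    rcases hwp with rfl | ⟨hpt, hwp⟩
    · -- `p ∈ D`
      rcases lt_or_eq_of_le hq.2 with hlt | heq
      · exact ⟨q, ⟨hq.1, hlt⟩, hc.tail hw ⟨hq.1, hlt⟩ hs, Or.inl rfl⟩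
      · refine ⟨w, hw, hc, Or.inr ⟨heq, ?_⟩⟩
        rcases hs.symm with h2 | ⟨-, h2⟩
        · rw [h2]
          simp
        · exact h2
    · -- `p` is a tie with neighbour `w`
      rcases hs with h2 | ⟨h1, h2⟩
      · by_cases h1 : q.1 = p.1
        · have : q = p := Prod.ext h1 h2.symm
          subst this
          exact ⟨w, hw, hc, Or.inr ⟨hpt, hwp⟩⟩
        have hw1 : w.1 ≠ p.1 := by
          intro he
          have h3 := hw.2
          rw [he, Q.v_vertex hwp x m, hpt] at h3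
          exact lt_irrefl _ h3
        have hO' := hO.link hp.1
        have hA' := hA.link hPF hp.1.1 hp.1.2.1 hpt.ge
        have hw' := hw.to_link (U := T.erase p.1) (a := p.2) (Finset.mem_erase.2 ⟨hw1, hw.1.1⟩) hwp
        have hq1 : q.2 * p.2⁻¹ ∈ AP M (T.erase p.1) := by
          rw [h2]
          simp
        have hq' := hq.1.to_link (U := T.erase p.1) (a := p.2) (Finset.mem_erase.2 ⟨h1, hq.1.1⟩) hq1
        have back : ∀ u, Q.D (T.erase p.1) (p.2 • x) m c u →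
            Conn M T (Q.D T x m c) x₀ (u.1, u.2 * p.2) := by
          intro u hu
          have := (hC p.1 hp.1.1 _ m c hO' hA' _ _ hw' hu).link (Finset.erase_subset _ _) p.2
            (D := Q.D T x m c) (fun z hz => hz.of_link (Finset.erase_subset _ _) hp.1.2.1)
          simp only [inv_mul_cancel_right, Prod.mk.eta] at this
          exact hc.trans this
        rcases lt_or_eq_of_le hq.2 with hlt | heq
        · refine ⟨q, ⟨hq.1, hlt⟩, ?_, Or.inl rfl⟩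
          have := back _ (D.to_link (U := T.erase p.1) (a := p.2) ⟨hq.1, hlt⟩
            (Finset.mem_erase.2 ⟨h1, hq.1.1⟩) hq1)
          simpa using this
        · obtain ⟨u, hu, hu2⟩ := hC' p.1 hp.1.1 _ m c hO' hA' ⟨_, hw'⟩ _ hq'
            (by simpa [← mul_smul] using heq)
          refine ⟨(u.1, u.2 * p.2), hu.of_link (Finset.erase_subset _ _) hp.1.2.1, back u hu,
            Or.inr ⟨heq, ?_⟩⟩
          have := AP_mono (M := M) (Finset.erase_subset_erase q.1 (Finset.erase_subset p.1 T)) hu2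
          simpa [mul_assoc] using this
      · refine ⟨w, hw, hc, Or.inr ⟨?_, ?_⟩⟩
        · rw [← h1, Q.v_vertex h2 x m, hpt]
        · have := mul_mem hwp (inv_mem h2)
          rw [← h1]
          simpa [mul_assoc] using this

theorem step_conn (hPF : S_PF M) {T : Finset S} (hC : ∀ t ∈ T, S_C Q (T.erase t))
    (hC' : ∀ t ∈ T, S_C' Q (T.erase t)) {x : Q.X} {m : ℤ} {c : S → ℝ} (hO : Q.Out T m x)
    (hA : Q.Adm T x m c) {x₀ q : S × ArtinGroup M} (h₀ : Q.D T x m c x₀) (hq : Q.D T x m c q)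
    (h : Conn M T (Q.Dp T x m c) x₀ q) : Conn M T (Q.D T x m c) x₀ q := by
  obtain ⟨w, -, hc, rfl | ⟨h1, -⟩⟩ := step hPF hC hC' hO hA h₀ h
  · exact hc
  · exact absurd hq.2 (by rw [h1]; exact lt_irrefl _)

/-- descent at a fixed level -/
theorem descend_level (hPF : S_PF M) {T : Finset S} (hC : ∀ t ∈ T, S_C Q (T.erase t))
    (hC' : ∀ t ∈ T, S_C' Q (T.erase t)) {y : S → ℝ} (hy : ∀ s, 0 < y s)
    (hCy : ∀ s ∈ T, Car M T y s ≤ 0) {x : Q.X} {m : ℤ} {c : S → ℝ} (hO : Q.Out T m x)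
    (hA : Q.Adm T x m c) {p q : S × ArtinGroup M} (hp : Q.Dp T x m c p) (hq : Q.Dp T x m c q)
    (h : Conn M T (Q.Vx T x m) p q) : Conn M T (Q.Dp T x m c) p q := by
  have hle : ∀ (z : S × ArtinGroup M) (H : ℝ), (Q.v (z.2 • x) m z.1 - c z.1) / y z.1 ≤ H ↔
      Q.v (z.2 • x) m z.1 ≤ c z.1 + H * y z.1 := by
    intro z H
    rw [div_le_iff₀ (hy _)]
    constructor <;> intro h <;> linarith
  have hlt : ∀ (z : S × ArtinGroup M) (H : ℝ), (Q.v (z.2 • x) m z.1 - c z.1) / y z.1 < H ↔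
      Q.v (z.2 • x) m z.1 < c z.1 + H * y z.1 := by
    intro z H
    rw [div_lt_iff₀ (hy _)]
    constructor <;> intro h <;> linarith
  have := Conn.descend (P := Q.Vx T x m) (fun z => (Q.v (z.2 • x) m z.1 - c z.1) / y z.1)
    (fun H => (finite_heights T x m c y hy H).subset
      (by rintro r ⟨z, hz, h1, -, h3⟩; exact ⟨z, hz.1, h1, h3⟩)) (p := p) (q := q) ?_ h
  · exact this.mono fun z hz => ⟨hz.1, by simpa using (hle z 0).1 hz.2⟩
  · intro H hH hc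
    have hA' : Q.Adm T x m fun s => c s + H * y s := by
      intro u hu
      rw [Car_add_smul]
      have := hA u hu
      have := mul_nonpos_of_nonneg_of_nonpos hH.le (hCy u hu)
      linarith
    have hD : ∀ z, Q.Dp T x m c z → Q.D T x m (fun s => c s + H * y s) z := fun z hz =>
      ⟨hz.1, by have := hz.2; have := mul_pos hH (hy z.1); linarith⟩
    have := step_conn hPF hC hC' hO hA' (hD p hp) (hD q hq)
      (hc.mono fun z hz => ⟨hz.1, (hle z H).1 hz.2⟩)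
    exact this.mono fun z hz => ⟨hz.1, (hlt z H).2 hz.2⟩

/-- `D ∪ ties` is connected in the connected non-spherical case -/
theorem conn_Dp (hPF : S_PF M) {T : Finset S} (hT : 2 ≤ T.card) (hC : ∀ t ∈ T, S_C Q (T.erase t))
    (hC' : ∀ t ∈ T, S_C' Q (T.erase t)) {y : S → ℝ} (hy : ∀ s, 0 < y s)
    (hCy : ∀ s ∈ T, Car M T y s ≤ 0) {x : Q.X} {m : ℤ} {c : S → ℝ} (hO : Q.Out T m x)
    (hA : Q.Adm T x m c) {p q : S × ArtinGroup M} (hp : Q.Dp T x m c p) (hq : Q.Dp T x m c q) :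
    Conn M T (Q.Dp T x m c) p q := by
  obtain ⟨n, hn, hc⟩ := (conn_all hT ⟨hp.1.1, hp.1.2.1⟩ ⟨hq.1.1, hq.1.2.1⟩).exists_mem
    (fun n => Q.Vx T x n) (fun i j hij z hz => hz.mono hij) (fun z hz => exists_Vx x hz) m
  refine descend_level hPF hC hC' hy hCy hO hA hp hq ?_
  induction n, hn using Int.leInduction with
  | base => exact hc
  | succ n hn ih =>
    refine ih ?_
    have hA0 : Q.Adm T x (n + 1) fun _ => 0 := by
      intro u _
      have := Q.b_nonneg hPF T x (n + 1) u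
      simpa [Car] using this
    have hDp : ∀ z, Q.Vx T x m z → Q.Dp T x (n + 1) (fun _ => 0) z := fun z hz =>
      ⟨hz.mono (by omega), (hz.2.2 (n + 1) (by omega)).le⟩
    exact (descend_level hPF hC hC' hy hCy (hO.mono (by omega)) hA0 (hDp p hp.1) (hDp q hq.1) hc).mono
      fun z hz => hz.1.succ hz.2

end Mdl

/-! ### the reducible case -/

theorem commute_AP (hPF : S_PF M) {T₁ T₂ : Finset S} (hd : Disjoint T₁ T₂)
    (h : ∀ s ∈ T₁, ∀ t ∈ T₂, adj M s t = 0) {a b : ArtinGroup M} (ha : a ∈ AP M T₁) (hb : b ∈ AP M T₂) :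
    Commute a b := by
  have h1 : ∀ s ∈ T₁, Commute (σ M s) b := by
    intro s hs
    refine AP_induction (p := fun b => Commute (σ M s) b) hb (Commute.one_right _) ?_ ?_
    · intro u hu g _ ih
      exact Commute.mul_right ((hPF.1 s u).2.2 (fun he => Finset.disjoint_left.1 hd hs (he ▸ hu))
        (h s hs u hu)) ih
    · intro u hu g _ ih
      exact Commute.mul_right (Commute.inv_right (show Commute (σ M s) (σ M u) from
        (hPF.1 s u).2.2 (fun he => Finset.disjoint_left.1 hd hs (he ▸ hu)) (h s hs u hu))) ih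
  refine AP_induction (p := fun a => Commute a b) ha (Commute.one_left _) ?_ ?_
  · intro u hu g _ ih
    exact (h1 u hu).mul_left ih
  · intro u hu g _ ih
    exact (h1 u hu).inv_left.mul_left ih

theorem exists_mul_AP (hPF : S_PF M) {T₁ T₂ : Finset S} (hd : Disjoint T₁ T₂)
    (h : ∀ s ∈ T₁, ∀ t ∈ T₂, adj M s t = 0) {g : ArtinGroup M} (hg : g ∈ AP M (T₁ ∪ T₂)) :
    ∃ a ∈ AP M T₁, ∃ b ∈ AP M T₂, g = a * b := by
  have key : ∀ (k g : ArtinGroup M), (k ∈ AP M T₁ ∨ k ∈ AP M T₂) →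
      (∃ a ∈ AP M T₁, ∃ b ∈ AP M T₂, g = a * b) → ∃ a ∈ AP M T₁, ∃ b ∈ AP M T₂, k * g = a * b := by
    rintro k g (hk | hk) ⟨a, ha, b, hb, rfl⟩
    · exact ⟨k * a, mul_mem hk ha, b, hb, by rw [mul_assoc]⟩
    · refine ⟨a, ha, k * b, mul_mem hk hb, ?_⟩
      rw [← mul_assoc, ← (commute_AP hPF hd h ha hk).eq, mul_assoc]
  refine AP_induction (p := fun g => ∃ a ∈ AP M T₁, ∃ b ∈ AP M T₂, g = a * b) hg
    ⟨1, one_mem _, 1, one_mem _, by simp⟩ ?_ ?_
  · intro u hu g _ ih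
    exact key _ _ ((Finset.mem_union.1 hu).imp σ_mem_AP σ_mem_AP) ih
  · intro u hu g _ ih
    exact key _ _ ((Finset.mem_union.1 hu).imp (fun h => inv_mem (σ_mem_AP h))
      (fun h => inv_mem (σ_mem_AP h))) ih

namespace Mdl

variable {Q : Mdl M}

theorem Out.left {T₁ T₂ : Finset S} (h : ∀ s ∈ T₁, ∀ t ∈ T₂, adj M s t = 0) {x : Q.X} {m : ℤ}
    (hO : Q.Out (T₁ ∪ T₂) m x) : Q.Out T₁ m x := by
  intro n hn u hu
  have h' := hO n hn u (Finset.mem_union_left _ hu)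
  refine ⟨h'.1, fun t ht hadj => h'.2 t (fun htT => ?_) hadj⟩
  rcases Finset.mem_union.1 htT with h1 | h1
  · exact ht h1
  · exact hadj (h u hu t h1)

theorem Adm.left {T₁ T₂ : Finset S} (hd : Disjoint T₁ T₂) (h : ∀ s ∈ T₁, ∀ t ∈ T₂, adj M s t = 0)
    {x : Q.X} {m : ℤ} {c : S → ℝ} (hA : Q.Adm (T₁ ∪ T₂) x m c) : Q.Adm T₁ x m c := by
  intro u hu
  have h' := hA u (Finset.mem_union_left _ hu)
  have e1 : Car M T₁ c u = Car M (T₁ ∪ T₂) c u := by
    unfold Car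
    rw [Finset.sum_union hd, Finset.sum_eq_zero (s := T₂) fun t ht => by rw [h u hu t ht, zero_mul],
      add_zero]
  have e2 : Q.b T₁ x m u = Q.b (T₁ ∪ T₂) x m u := by
    unfold b
    congr 1
    refine (Finset.sum_subset (Finset.compl_subset_compl.2 Finset.subset_union_left) ?_).symm
    intro t ht ht'
    have : t ∈ T₂ := by
      by_contra h2
      exact ht' (Finset.mem_compl.2 fun h3 => (Finset.mem_union.1 h3).elim (Finset.mem_compl.1 ht) h2)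
    rw [h u hu t this, zero_mul]
  rw [e1, e2]
  exact h'

/-- a vertex with type in `T₁` has a chamber in `A_{T₁}` -/
theorem exists_left (hPF : S_PF M) {T₁ T₂ : Finset S} (hd : Disjoint T₁ T₂)
    (h : ∀ s ∈ T₁, ∀ t ∈ T₂, adj M s t = 0) {p : S × ArtinGroup M} (h1 : p.1 ∈ T₁)
    (h2 : p.2 ∈ AP M (T₁ ∪ T₂)) :
    ∃ a ∈ AP M T₁, ∀ b ∈ AP M T₂, ∀ k ∈ AP M (T₁.erase p.1),
      k * a * b * p.2⁻¹ ∈ AP M ((T₁ ∪ T₂).erase p.1) := by
  obtain ⟨a, ha, b, hb, he⟩ := exists_mul_AP hPF hd h h2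
  refine ⟨a, ha, fun b' hb' k hk => ?_⟩
  have hsub : T₂ ⊆ (T₁ ∪ T₂).erase p.1 := fun t ht =>
    Finset.mem_erase.2 ⟨fun he => Finset.disjoint_left.1 hd h1 (he ▸ ht), Finset.mem_union_right _ ht⟩
  have hbb : b' * b⁻¹ ∈ AP M T₂ := mul_mem hb' (inv_mem hb)
  have : k * a * b' * p.2⁻¹ = k * (b' * b⁻¹) := by
    rw [he, mul_inv_rev, mul_assoc k, mul_assoc k]
    congr 1
    rw [← mul_assoc, mul_assoc a, (commute_AP hPF hd h ha hbb).eq]
    simp
  rw [this]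
  exact mul_mem (AP_mono (Finset.erase_subset_erase _ Finset.subset_union_left) hk) (AP_mono hsub hbb)

theorem sc_union_aux (hPF : S_PF M) {T₁ T₂ : Finset S} (hd : Disjoint T₁ T₂)
    (h : ∀ s ∈ T₁, ∀ t ∈ T₂, adj M s t = 0) (hC : S_C Q T₁) {x : Q.X} {m : ℤ} {c : S → ℝ}
    (hO : Q.Out (T₁ ∪ T₂) m x) (hA : Q.Adm (T₁ ∪ T₂) x m c) {p q : S × ArtinGroup M}
    (hp : Q.D (T₁ ∪ T₂) x m c p) (hq : Q.D (T₁ ∪ T₂) x m c q) (hp1 : p.1 ∈ T₁) :
    Conn M (T₁ ∪ T₂) (Q.D (T₁ ∪ T₂) x m c) p q := by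
  obtain ⟨a, ha, hpa⟩ := exists_left hPF hd h hp1 hp.1.2.1
  rcases Finset.mem_union.1 hq.1.1 with hq1 | hq1
  · obtain ⟨a', ha', hqa⟩ := exists_left hPF hd h hq1 hq.1.2.1
    have e1 : a * p.2⁻¹ ∈ AP M ((T₁ ∪ T₂).erase p.1) := by
      simpa using hpa 1 (one_mem _) 1 (one_mem _)
    have e2 : a' * q.2⁻¹ ∈ AP M ((T₁ ∪ T₂).erase q.1) := by
      simpa using hqa 1 (one_mem _) 1 (one_mem _)
    have d1 := hp.vertex e1
    have d2 := hq.vertex e2
    have c1 := (hC x m c (hO.left h) (hA.left hd h) (p.1, a) (q.1, a') ⟨⟨hp1, ha, d1.1.2.2⟩, d1.2⟩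
      ⟨⟨hq1, ha', d2.1.2.2⟩, d2.2⟩).mono' (T := T₁ ∪ T₂) Finset.subset_union_left
      (D := Q.D (T₁ ∪ T₂) x m c) (fun z hz => ⟨⟨Finset.mem_union_left _ hz.1.1,
        AP_mono Finset.subset_union_left hz.1.2.1, hz.1.2.2⟩, hz.2⟩)
    exact ((Conn.single hp d1 (Or.inr ⟨rfl, e1⟩)).trans c1).trans
      (Conn.single hq d2 (Or.inr ⟨rfl, e2⟩)).symm
  · have h' : ∀ s ∈ T₂, ∀ t ∈ T₁, adj M s t = 0 := fun s hs t ht => by
      rw [adj_symm M]; exact h t ht s hs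
    obtain ⟨b, hb, hqb⟩ := exists_left hPF hd.symm h' hq1 (by rw [Finset.union_comm]; exact hq.1.2.1)
    have e1 : a * b * p.2⁻¹ ∈ AP M ((T₁ ∪ T₂).erase p.1) := by
      simpa using hpa b hb 1 (one_mem _)
    have e2 : a * b * q.2⁻¹ ∈ AP M ((T₁ ∪ T₂).erase q.1) := by
      rw [Finset.union_comm, (commute_AP hPF hd h ha hb).eq]
      simpa using hqb a ha 1 (one_mem _)
    have d1 := hp.vertex e1
    have d2 := hq.vertex e2
    exact ((Conn.single hp d1 (Or.inr ⟨rfl, e1⟩)).tail d1 d2 (Or.inl rfl)).trans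
      (Conn.single hq d2 (Or.inr ⟨rfl, e2⟩)).symm

theorem sc'_union_aux (hPF : S_PF M) {T₁ T₂ : Finset S} (hd : Disjoint T₁ T₂)
    (h : ∀ s ∈ T₁, ∀ t ∈ T₂, adj M s t = 0) (hC : S_C' Q T₁) {x : Q.X} {m : ℤ} {c : S → ℝ}
    (hO : Q.Out (T₁ ∪ T₂) m x) (hA : Q.Adm (T₁ ∪ T₂) x m c) {p z : S × ArtinGroup M}
    (hp : Q.D (T₁ ∪ T₂) x m c p) (hz : Q.Vx (T₁ ∪ T₂) x m z) (hzc : Q.v (z.2 • x) m z.1 = c z.1)
    (hz1 : z.1 ∈ T₁) :
    ∃ w, Q.D (T₁ ∪ T₂) x m c w ∧ w.2 * z.2⁻¹ ∈ AP M ((T₁ ∪ T₂).erase z.1) := by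
  obtain ⟨a, ha, hza⟩ := exists_left hPF hd h hz1 hz.2.1
  rcases Finset.mem_union.1 hp.1.1 with hp1 | hp1
  · obtain ⟨a', ha', hpa⟩ := exists_left hPF hd h hp1 hp.1.2.1
    have e1 : a * z.2⁻¹ ∈ AP M ((T₁ ∪ T₂).erase z.1) := by
      simpa using hza 1 (one_mem _) 1 (one_mem _)
    have e2 : a' * p.2⁻¹ ∈ AP M ((T₁ ∪ T₂).erase p.1) := by
      simpa using hpa 1 (one_mem _) 1 (one_mem _)
    have d1 := hz.vertex e1
    have d2 := hp.vertex e2
    obtain ⟨w, hw, hw2⟩ := hC x m c (hO.left h) (hA.left hd h) ⟨(p.1, a'), ⟨hp1, ha', d2.1.2.2⟩, d2.2⟩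
      (z.1, a) ⟨hz1, ha, d1.2.2⟩ (by rw [← hzc]; exact Q.v_vertex e1 x m)
    refine ⟨w, ⟨⟨Finset.mem_union_left _ hw.1.1, AP_mono Finset.subset_union_left hw.1.2.1,
      hw.1.2.2⟩, hw.2⟩, ?_⟩
    simpa using hza 1 (one_mem _) _ hw2
  · have h' : ∀ s ∈ T₂, ∀ t ∈ T₁, adj M s t = 0 := fun s hs t ht => by
      rw [adj_symm M]; exact h t ht s hs
    obtain ⟨b, hb, hpb⟩ := exists_left hPF hd.symm h' hp1 (by rw [Finset.union_comm]; exact hp.1.2.1)
    have e1 : a * b * z.2⁻¹ ∈ AP M ((T₁ ∪ T₂).erase z.1) := by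
      simpa using hza b hb 1 (one_mem _)
    have e2 : a * b * p.2⁻¹ ∈ AP M ((T₁ ∪ T₂).erase p.1) := by
      rw [Finset.union_comm, (commute_AP hPF hd h ha hb).eq]
      simpa using hpb a ha 1 (one_mem _)
    exact ⟨_, hp.vertex e2, e1⟩

end Mdl

/-- a non-connected diagram splits -/
theorem exists_split {T : Finset S} (h : ¬ Cnt M T) :
    ∃ T₁ T₂ : Finset S, T = T₁ ∪ T₂ ∧ Disjoint T₁ T₂ ∧ T₁ ⊂ T ∧ T₂ ⊂ T ∧
      ∀ s ∈ T₁, ∀ t ∈ T₂, adj M s t = 0 := by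
  unfold Cnt at h
  push Not at h
  obtain ⟨T₁, hsub, hcl, hne, hne'⟩ := h
  refine ⟨T₁, T \ T₁, (Finset.union_sdiff_of_subset hsub).symm, Finset.disjoint_sdiff,
    Finset.ssubset_iff_subset_ne.2 ⟨hsub, hne'⟩, Finset.sdiff_ssubset hsub hne, fun s hs t ht => ?_⟩
  by_contra hadj
  exact (Finset.mem_sdiff.1 ht).2 (hcl s hs t (Finset.mem_sdiff.1 ht).1 hadj)

/-- `C(T)` and `C'(T)` for every `T`. -/
theorem call_both (Q : Mdl M) (hPF : S_PF M) (hC : ∀ U, FinT M U → S_C Q U)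
    (hC' : ∀ U, FinT M U → S_C' Q U) (T : Finset S) : S_C Q T ∧ S_C' Q T := by
  induction T using Finset.strongInduction with
  | H T ih =>
    by_cases hF : FinT M T
    · exact ⟨hC T hF, hC' T hF⟩
    by_cases hT : Cnt M T
    · obtain ⟨h2, y, μ, hy, hμ, hCy, -⟩ := hPF.2.2.1 T hT hF
      have hCy' : ∀ s ∈ T, Car M T y s ≤ 0 := fun s hs => by
        rw [hCy s hs]; exact mul_nonpos_of_nonpos_of_nonneg hμ (hy s).le
      have i1 : ∀ t ∈ T, S_C Q (T.erase t) := fun t ht => (ih _ (Finset.erase_ssubset ht)).1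
      have i2 : ∀ t ∈ T, S_C' Q (T.erase t) := fun t ht => (ih _ (Finset.erase_ssubset ht)).2
      refine ⟨fun x m c hO hA p q hp hq => ?_, fun x m c hO hA ⟨p, hp⟩ z hz hzc => ?_⟩
      · exact Mdl.step_conn hPF i1 i2 hO hA hp hq
          (Mdl.conn_Dp hPF h2 i1 i2 hy hCy' hO hA ⟨hp.1, hp.2.le⟩ ⟨hq.1, hq.2.le⟩)
      · obtain ⟨w, hw, -, rfl | ⟨-, h1⟩⟩ := Mdl.step hPF i1 i2 hO hA hp
          (Mdl.conn_Dp hPF h2 i1 i2 hy hCy' hO hA ⟨hp.1, hp.2.le⟩ ⟨hz, hzc.le⟩)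
        · exact ⟨w, hw, by simp⟩
        · exact ⟨w, hw, h1⟩
    · obtain ⟨T₁, T₂, rfl, hd, h1, h2, h⟩ := exists_split hT
      have h' : ∀ s ∈ T₂, ∀ t ∈ T₁, adj M s t = 0 := fun s hs t ht => by
        rw [adj_symm M]; exact h t ht s hs
      refine ⟨fun x m c hO hA p q hp hq => ?_, fun x m c hO hA ⟨p, hp⟩ z hz hzc => ?_⟩
      · rcases Finset.mem_union.1 hp.1.1 with hp1 | hp1
        · exact Mdl.sc_union_aux hPF hd h (ih _ h1).1 hO hA hp hq hp1
        · rw [Finset.union_comm] at hO hA hp hq ⊢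
          exact Mdl.sc_union_aux hPF hd.symm h' (ih _ h2).1 hO hA hp hq hp1
      · rcases Finset.mem_union.1 hz.1 with hz1 | hz1
        · exact Mdl.sc'_union_aux hPF hd h (ih _ h1).2 hO hA hp hz hzc hz1
        · rw [Finset.union_comm] at hO hA hp hz ⊢
          exact Mdl.sc'_union_aux hPF hd.symm h' (ih _ h2).2 hO hA hp hz hzc hz1

theorem call (Q : Mdl M) : S_PF M → (∀ U, FinT M U → S_C Q U) → (∀ U, FinT M U → S_C' Q U) →
    ∀ T, S_C Q T := fun hPF hC hC' T => (call_both Q hPF hC hC' T).1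

theorem call' (Q : Mdl M) : S_PF M → (∀ U, FinT M U → S_C Q U) → (∀ U, FinT M U → S_C' Q U) →
    ∀ T, S_C' Q T := fun hPF hC hC' T => (call_both Q hPF hC hC' T).2

end Crest.Agent.R175.P
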